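import Vale.Agent.P064.Final

open Finset in
/-- Let `H` be a graph on `n ≥ 2` labelled vertices and `q > 0`. The orbit of an edge set `J` under
all permutations of the vertices is the set of copies of `J` in the complete graph, so that
`|orbit J| * q ^ |J|` is the expected number of copies of `J` in `G(n,q)`. If this expectation is at
least `1/2` for every nonempty `J ⊆ E(H)`, then for every `F ⊆ E(H)` the number of copies of `F` in
`H` is at most `|orbit F| * (864 * log₂ n * q) ^ |F|`, the expected number of copies of `F` in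
`G(n, 864 * log₂ n * q)`. Thus the fractional expectation threshold satisfies
`p̃_E ≤ 864 * log₂ n * p_E`. -/
theorem Vale.Agent.Results.P064.ExpectationLog.result {n : ℕ} (hn : 2 ≤ n)
    (H : SimpleGraph (Fin n)) [DecidableRel H.Adj] (q : ℝ) (hq : 0 < q)
    (hE : ∀ J ⊆ H.edgeFinset, J.Nonempty →
      (1 / 2 : ℝ) ≤
        ((univ.image fun σ : Equiv.Perm (Fin n) => J.image (Sym2.map σ)).card : ℝ) * q ^ J.card)
    (F : Finset (Sym2 (Fin n))) (hF : F ⊆ H.edgeFinset) :
    (((univ.image fun σ : Equiv.Perm (Fin n) => F.image (Sym2.map σ)).filter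
        (· ⊆ H.edgeFinset)).card : ℝ) ≤
      ((univ.image fun σ : Equiv.Perm (Fin n) => F.image (Sym2.map σ)).card : ℝ) *
        (864 * Real.logb 2 n * q) ^ F.card := by
  have hn2 : 2 ≤ Fintype.card (Fin n) := by simpa using hn
  have hnR : (2:ℝ) ≤ n := by exact_mod_cast hn
  have hΛ1 : 1 ≤ Real.logb 2 n := by
    rw [Real.le_logb_iff_rpow_le (by norm_num) (by linarith)]
    simpa using hnR
  have hΛ2 : ∀ E a : ℕ, (4:ℝ) ^ E ≤ 2 * (Fintype.card (Fin n) : ℝ) ^ a →
      2 * (E:ℝ) ≤ 1 + a * Real.logb 2 n := by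
    intro E a h
    rw [Fintype.card_fin] at h
    have h1 := Real.logb_le_logb_of_le (b := 2) (by norm_num) (by positivity) h
    rw [Real.logb_mul (by norm_num) (by positivity), Real.logb_pow, Real.logb_pow] at h1
    have h4 : Real.logb 2 4 = 2 := by
      rw [show (4:ℝ) = 2 ^ (2:ℕ) by norm_num, Real.logb_pow]
      simp
    have h2 : Real.logb 2 2 = 1 := by simp
    rw [h4, h2] at h1
    linarith
  exact Vale.Agent.P064.copies_bound hq hE hF hn2 hΛ1 hΛ2
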